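import Vale.Agent.P356.Main

open Vale.Agent.P356

open scoped Matrix.Norms.L2Operator

/-- For all `q ≥ 2`, `R`, `J > 0`, `Δ > 0` there are `0 < ε ≤ 1` and `C ≥ 0` such that every
admissible Hamiltonian with gap at least `Δ` on every square lattice has ground-state entropies
`S(A) ≤ (1 - ε) log q · min(|A|, |Aᶜ|) + C |∂A|`. The norm is the operator norm. -/
theorem Vale.Agent.Results.P356.SubmaximalVolumeLaw.result (q R : ℕ) (hq : 2 ≤ q) (J Δ : ℝ)
    (hJ : 0 < J) (hΔ : 0 < Δ) :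
    ∃ ε C : ℝ, 0 < ε ∧ ε ≤ 1 ∧ 0 ≤ C ∧
      ∀ (L : ℕ) (h : ∀ X : Finset (Site L), Matrix (X → Fin q) (X → Fin q) ℂ) (E₀ : ℝ)
        (Ω : (Site L → Fin q) → ℂ),
        (∀ X ∈ supports L R, (h X).IsHermitian ∧ ‖h X‖ ≤ J) →
        HasGap (hamiltonian R h) Δ E₀ Ω →
        ∀ A : Finset (Site L),
          entropy Ω A ≤ (1 - ε) * Real.log q * ((min A.card Aᶜ.card : ℕ) : ℝ)
            + C * ((edgeBoundary A).card : ℝ) :=
  submaximal_volume_law R hq hJ hΔ
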